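import Vale.Agent.P097.Reg.STab
import Vale.Agent.P097.H128.Conic

/-! # P097 / H384 : radius of curvature `K P ^ (-3/2)`, `P` a trigonometric polynomial of degree 2 -/

set_option linter.all false

namespace Vale.Agent.P097.H384

open Real

/-- trigonometric polynomials of degree two -/
noncomputable def tp (c0 c1 s1 c2 s2 x : ℝ) : ℝ :=
  c0 + c1 * cos x + s1 * sin x + c2 * cos (2 * x) + s2 * sin (2 * x)

lemma tp_cont (c0 c1 s1 c2 s2 : ℝ) : Continuous (tp c0 c1 s1 c2 s2) := by
  unfold tp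
  fun_prop

lemma tp_shift (c0 c1 s1 c2 s2 x : ℝ) :
    tp c0 c1 s1 c2 s2 (x + π) = tp c0 (-c1) (-s1) c2 s2 x := by
  simp only [tp, cos_add_pi, sin_add_pi]
  rw [show 2 * (x + π) = 2 * x + 2 * π by ring, cos_add_two_pi, sin_add_two_pi]
  ring

section closure

variable {h : ℝ → ℝ}

lemma st_h1 (H : SmoothTable h) : Differentiable ℝ h :=
  H.1.differentiable (by simp)

lemma st_dh (H : SmoothTable h) : ContDiff ℝ (⊤ : ℕ∞) (deriv h) := by
  have := H.1
  have h2 : ContDiff ℝ ((⊤ : ℕ∞) : WithTop ℕ∞) h := this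
  exact (contDiff_infty_iff_deriv.1 h2).2

lemma st_ddh (H : SmoothTable h) : ContDiff ℝ (⊤ : ℕ∞) (deriv (deriv h)) :=
  (contDiff_infty_iff_deriv.1 (st_dh H)).2

lemma st_h2 (H : SmoothTable h) : Differentiable ℝ (deriv h) :=
  (contDiff_infty_iff_deriv.1 (st_dh H)).1

lemma st_per1 (H : SmoothTable h) (x : ℝ) : deriv h (x + 2 * π) = deriv h x := by
  have h1 : (fun x => h (x + 2 * π)) = h := funext H.2.1
  have h2 := congrFun (congrArg deriv h1) x
  rwa [deriv_comp_add_const] at h2

lemma st_per2 (H : SmoothTable h) (x : ℝ) : deriv (deriv h) (x + 2 * π) = deriv (deriv h) x := by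
  have h1 : (fun x => deriv h (x + 2 * π)) = deriv h := funext (st_per1 H)
  have h2 := congrFun (congrArg deriv h1) x
  rwa [deriv_comp_add_const] at h2

/-- closure of the boundary curve -/
lemma closure_int (H : SmoothTable h) (c s : ℝ) :
    ∫ x in (0 : ℝ)..(2 * π), (h x + deriv (deriv h) x) * (c * cos x + s * sin x) = 0 := by
  have hd : ∀ x, HasDerivAt
      (fun x => c * (deriv h x * cos x + h x * sin x) + s * (deriv h x * sin x - h x * cos x))
      ((h x + deriv (deriv h) x) * (c * cos x + s * sin x)) x := by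
    intro x
    have e1 := (st_h1 H x).hasDerivAt
    have e2 := (st_h2 H x).hasDerivAt
    refine ((((e2.mul (hasDerivAt_cos x)).add (e1.mul (hasDerivAt_sin x))).const_mul c).add
      (((e2.mul (hasDerivAt_sin x)).sub (e1.mul (hasDerivAt_cos x))).const_mul s)).congr_deriv ?_
    ring
  have hc : Continuous fun x => (h x + deriv (deriv h) x) * (c * cos x + s * sin x) := by
    have e1 := (st_h1 H).continuous
    have e2 := (st_ddh H).continuous
    fun_prop
  rw [intervalIntegral.integral_eq_sub_of_hasDerivAt (fun x _ => hd x)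
    (hc.intervalIntegrable _ _)]
  have e1 := st_per1 H 0
  have e2 := H.2.1 0
  rw [zero_add] at e1 e2
  rw [e1, e2, cos_two_pi, sin_two_pi, cos_zero, sin_zero]
  ring

end closure

/-- no first harmonics -/
lemma no_first {h : ℝ → ℝ} (H : SmoothTable h) {K c0 c1 s1 c2 s2 : ℝ} (hK : 0 < K)
    (hP : ∀ x, 0 < tp c0 c1 s1 c2 s2 x)
    (he : ∀ x, (h x + deriv (deriv h) x) * √(tp c0 c1 s1 c2 s2 x) ^ 3 = K) :
    c1 = 0 ∧ s1 = 0 := by
  set ρ : ℝ → ℝ := fun x => h x + deriv (deriv h) x with hρ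
  set w : ℝ → ℝ := fun x => c1 * cos x + s1 * sin x with hw
  have hρc : Continuous ρ := (st_h1 H).continuous.add (st_ddh H).continuous
  have hwc : Continuous w := by
    simp only [hw]
    fun_prop
  have hws : ∀ x, w (x + π) = -w x := by
    intro x
    simp only [hw, cos_add_pi, sin_add_pi]
    ring
  -- the integral over half a period
  have h0 : ∫ x in (0 : ℝ)..π, (ρ (x + π) - ρ x) * w x = 0 := by
    have h1 := closure_int H c1 s1
    change ∫ x in (0 : ℝ)..(2 * π), ρ x * w x = 0 at h1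
    have hi : ∀ a b, IntervalIntegrable (fun x => ρ x * w x) MeasureTheory.volume a b :=
      fun a b => (hρc.mul hwc).intervalIntegrable a b
    rw [← intervalIntegral.integral_add_adjacent_intervals (hi 0 π) (hi π (2 * π))] at h1
    have h2 : ∫ x in (0 : ℝ)..π, ρ (x + π) * w (x + π) = ∫ x in π..(2 * π), ρ x * w x := by
      rw [intervalIntegral.integral_comp_add_right (fun x => ρ x * w x)]
      congr 1 <;> ring
    rw [← h2] at h1
    have h3 : ∫ x in (0 : ℝ)..π, (ρ (x + π) - ρ x) * w x =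
        -((∫ x in (0 : ℝ)..π, ρ x * w x) + ∫ x in (0 : ℝ)..π, ρ (x + π) * w (x + π)) := by
      rw [← intervalIntegral.integral_add, ← intervalIntegral.integral_neg]
      · refine intervalIntegral.integral_congr fun x _ => ?_
        simp only [hws]
        ring
      · exact hi _ _
      · have : Continuous fun x => ρ (x + π) * w (x + π) := by fun_prop
        exact this.intervalIntegrable _ _
    rw [h3, h1, neg_zero]
  -- sign of the integrand
  have hsgn : ∀ x, 0 ≤ (ρ (x + π) - ρ x) * w x ∧ ((ρ (x + π) - ρ x) * w x = 0 → w x = 0) := by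
    intro x
    set A := tp c0 c1 s1 c2 s2 x with hA
    set B := tp c0 c1 s1 c2 s2 (x + π) with hB
    have hAB : A - B = 2 * w x := by
      rw [hA, hB, tp_shift]
      simp only [tp, hw]
      ring
    have hA0 := hP x
    have hB0 := hP (x + π)
    have e1 := he x
    have e2 := he (x + π)
    change ρ x * √A ^ 3 = K at e1
    change ρ (x + π) * √B ^ 3 = K at e2
    have sA : 0 < √A := sqrt_pos.2 hA0
    have sB : 0 < √B := sqrt_pos.2 hB0
    have r1 : ρ x = K / √A ^ 3 := by rw [eq_div_iff (by positivity)]; exact e1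
    have r2 : ρ (x + π) = K / √B ^ 3 := by rw [eq_div_iff (by positivity)]; exact e2
    rcases lt_trichotomy (w x) 0 with hwx | hwx | hwx
    · have hlt : A < B := by linarith
      have : √A < √B := sqrt_lt_sqrt hA0.le hlt
      have : ρ (x + π) < ρ x := by
        rw [r1, r2]
        exact div_lt_div_of_pos_left hK (by positivity) (pow_lt_pow_left₀ this sA.le (by norm_num))
      have h4 : 0 < (ρ (x + π) - ρ x) * w x := mul_pos_of_neg_of_neg (by linarith) hwx
      exact ⟨h4.le, fun h5 => absurd h5 h4.ne'⟩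
    · simp [hwx]
    · have hlt : B < A := by linarith
      have : √B < √A := sqrt_lt_sqrt hB0.le hlt
      have : ρ x < ρ (x + π) := by
        rw [r1, r2]
        exact div_lt_div_of_pos_left hK (by positivity) (pow_lt_pow_left₀ this sB.le (by norm_num))
      have h4 : 0 < (ρ (x + π) - ρ x) * w x := mul_pos (by linarith) hwx
      exact ⟨h4.le, fun h5 => absurd h5 h4.ne'⟩
  have hz : ∀ x ∈ Set.Icc (0 : ℝ) π, w x = 0 := by
    intro x hx
    by_contra hne
    have hpos : 0 < (ρ (x + π) - ρ x) * w x :=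
      lt_of_le_of_ne (hsgn x).1 fun h5 => hne ((hsgn x).2 h5.symm)
    have hcc : Continuous fun x => (ρ (x + π) - ρ x) * w x := by fun_prop
    have := intervalIntegral.integral_pos pi_pos hcc.continuousOn
      (fun x _ => (hsgn x).1) ⟨x, hx, hpos⟩
    linarith
  constructor
  · have := hz 0 ⟨le_rfl, pi_pos.le⟩
    simpa [hw] using this
  · have := hz (π / 2) ⟨by positivity, by linarith [pi_pos]⟩
    simpa [hw] using this

/-- **Radius of curvature `K P ^ (-3/2)`**: the table is an ellipse. -/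
theorem ellipse_of_tp {h : ℝ → ℝ} (H : SmoothTable h) {K c0 c1 s1 c2 s2 : ℝ} (hK : 0 < K)
    (hP : ∀ x, 0 < tp c0 c1 s1 c2 s2 x)
    (he : ∀ x, (h x + deriv (deriv h) x) * √(tp c0 c1 s1 c2 s2 x) ^ 3 = K) :
    ∃ a b φ p q : ℝ, 0 < a ∧ 0 < b ∧ h = fun ψ => p * Real.cos ψ + q * Real.sin ψ +
      √(a ^ 2 * Real.cos (ψ - φ) ^ 2 + b ^ 2 * Real.sin (ψ - φ) ^ 2) := by
  obtain ⟨h1, h2⟩ := no_first H hK hP he
  subst h1 h2
  -- cube root of `K`
  set k : ℝ := (K ^ (1 / 3 : ℝ))⁻¹ with hk
  have hk0 : 0 < k := inv_pos.2 (rpow_pos_of_pos hK _)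
  have hk3 : k ^ 3 * K = 1 := by
    have : (K ^ (1 / 3 : ℝ)) ^ 3 = K := by
      rw [← rpow_natCast, ← rpow_mul hK.le]
      norm_num
    rw [hk, inv_pow, this]
    exact inv_mul_cancel₀ hK.ne'
  have hd1 : ∀ x, HasDerivAt (fun x => k ^ 2 * tp c0 0 0 c2 s2 x)
      (k ^ 2 * (-(2 * c2) * sin (2 * x) + 2 * s2 * cos (2 * x))) x := by
    intro x
    have e1 : HasDerivAt (fun x => cos (2 * x)) (-(sin (2 * x)) * 2) x := by
      simpa using ((hasDerivAt_id x).const_mul 2).cos
    have e2 : HasDerivAt (fun x => sin (2 * x)) (cos (2 * x) * 2) x := by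
      simpa using ((hasDerivAt_id x).const_mul 2).sin
    have e3 : HasDerivAt (fun x => k ^ 2 * (c0 + c2 * cos (2 * x) + s2 * sin (2 * x)))
      (k ^ 2 * (c2 * (-(sin (2 * x)) * 2) + s2 * (cos (2 * x) * 2))) x :=
      (((e1.const_mul c2).const_add c0).add (e2.const_mul s2)).const_mul (k ^ 2)
    have e4 : (fun x => k ^ 2 * tp c0 0 0 c2 s2 x) =
        fun x => k ^ 2 * (c0 + c2 * cos (2 * x) + s2 * sin (2 * x)) := by
      funext y
      simp only [tp]
      ring
    rw [e4]
    exact e3.congr_deriv (by ring)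
  have hd2 : ∀ x, HasDerivAt (fun x => k ^ 2 * (-(2 * c2) * sin (2 * x) + 2 * s2 * cos (2 * x)))
      (k ^ 2 * (-(4 * c2) * cos (2 * x) - 4 * s2 * sin (2 * x))) x := by
    intro x
    have e1 : HasDerivAt (fun x => cos (2 * x)) (-(sin (2 * x)) * 2) x := by
      simpa using ((hasDerivAt_id x).const_mul 2).cos
    have e2 : HasDerivAt (fun x => sin (2 * x)) (cos (2 * x) * 2) x := by
      simpa using ((hasDerivAt_id x).const_mul 2).sin
    exact (((e2.const_mul (-(2 * c2))).add (e1.const_mul (2 * s2))).const_mul (k ^ 2)).congr_deriv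
      (by ring)
  have hdv : deriv (fun x => k ^ 2 * tp c0 0 0 c2 s2 x) =
      fun x => k ^ 2 * (-(2 * c2) * sin (2 * x) + 2 * s2 * cos (2 * x)) :=
    funext fun x => (hd1 x).deriv
  refine H128.conic_of_const (v := fun x => k ^ 2 * tp c0 0 0 c2 s2 x) (c := 4 * k ^ 2 * c0)
    (st_h1 H) (st_h2 H) (fun x => (hd1 x).differentiableAt) ?_ ?_ ?_ ?_
  · rw [hdv]
    exact fun x => (hd2 x).differentiableAt
  · intro x
    have := hP x
    positivity
  · intro x
    show _ * √(k ^ 2 * _) ^ 3 = 1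
    rw [sqrt_mul (by positivity), sqrt_sq hk0.le, mul_pow]
    have := he x
    linear_combination k ^ 3 * this + hk3
  · intro x
    rw [hdv, (hd2 x).deriv]
    simp only [tp]
    ring

end Vale.Agent.P097.H384
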