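import Mathlib

/-! # P097 / H384 : polynomials real on the unit circle, partial fractions -/

set_option linter.all false

open Polynomial Complex
open scoped ComplexConjugate

namespace Vale.Agent.P097.H384

/-- reflection of a polynomial in the unit circle -/
noncomputable def rf (n : ℕ) (P : ℂ[X]) : ℂ[X] := reflect n (P.map (starRingEnd ℂ))

lemma map_conj_eval (P : ℂ[X]) (w : ℂ) :
    (P.map (starRingEnd ℂ)).eval w = conj (P.eval (conj w)) := by
  rw [eval_map]
  have := eval₂_at_apply (p := P) (starRingEnd ℂ) (conj w)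
  rwa [Complex.conj_conj] at this

lemma rf_eval {n : ℕ} {P : ℂ[X]} (h : P.natDegree ≤ n) {z : ℂ} (hz : z ≠ 0) :
    (rf n P).eval z = z ^ n * conj (P.eval (conj z⁻¹)) := by
  have hi : z⁻¹ ≠ 0 := inv_ne_zero hz
  letI : Invertible z⁻¹ := invertibleOfNonzero hi
  have hm : (P.map (starRingEnd ℂ)).natDegree ≤ n := (natDegree_map_le).trans h
  have := eval₂_reflect_mul_pow (RingHom.id ℂ) z⁻¹ n (P.map (starRingEnd ℂ)) hm
  rw [eval₂_id, eval₂_id, map_conj_eval] at this
  have e : (⅟ z⁻¹ : ℂ) = z := by simp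
  rw [e] at this
  rw [← this, rf, mul_left_comm, ← mul_pow, mul_inv_cancel₀ hz, one_pow, mul_one]

lemma rf_circle {n : ℕ} {P : ℂ[X]} (h : P.natDegree ≤ n) {z : ℂ} (hz : ‖z‖ = 1) :
    (rf n P).eval z = z ^ n * conj (P.eval z) := by
  have h0 : z ≠ 0 := by
    rintro rfl
    simp at hz
  rw [rf_eval h h0]
  congr 3
  rw [map_inv₀]
  have : z * conj z = 1 := by
    rw [Complex.mul_conj, Complex.normSq_eq_norm_sq, hz]
    norm_num
  exact inv_eq_of_mul_eq_one_left this

lemma rf_zero (n : ℕ) (P : ℂ[X]) : (rf n P).eval 0 = conj (P.coeff n) := by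
  rw [← coeff_zero_eq_eval_zero, rf, coeff_reflect, revAt_le (Nat.zero_le n), Nat.sub_zero,
    coeff_map]

lemma circle_infinite : {z : ℂ | ‖z‖ = 1}.Infinite := by
  have h1 : IsConnected (Metric.sphere (0 : ℂ) 1) :=
    isConnected_sphere (by simp) 0 zero_le_one
  have h2 : {z : ℂ | ‖z‖ = 1} = Metric.sphere (0 : ℂ) 1 := by
    ext z
    simp
  rw [h2]
  refine h1.isPreconnected.infinite_of_nontrivial ⟨1, by simp, -1, by simp, ?_⟩
  norm_num

lemma rf_id {n : ℕ} {N D : ℂ[X]} (hN : N.natDegree ≤ n) (hD : D.natDegree ≤ n)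
    (hr : ∀ z : ℂ, ‖z‖ = 1 → N.eval z * conj (D.eval z) = conj (N.eval z) * D.eval z) :
    N * rf n D = rf n N * D := by
  refine eq_of_infinite_eval_eq _ _ (circle_infinite.mono fun z hz => ?_)
  simp only [Set.mem_setOf_eq, eval_mul]
  rw [rf_circle hN hz, rf_circle hD hz]
  linear_combination z ^ n * hr z hz

lemma deg_le {N D : ℂ[X]} (D0 : D.eval 0 ≠ 0)
    (hr : ∀ z : ℂ, ‖z‖ = 1 → N.eval z * conj (D.eval z) = conj (N.eval z) * D.eval z) :
    N.natDegree ≤ D.natDegree := by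
  by_contra hlt
  push Not at hlt
  have h1 := congrArg (eval 0) (rf_id le_rfl hlt.le hr)
  rw [eval_mul, eval_mul, rf_zero, rf_zero, coeff_eq_zero_of_natDegree_lt hlt] at h1
  simp only [map_zero, mul_zero] at h1
  have hN : N ≠ 0 := by
    rintro rfl
    simp at hlt
  have h2 := mul_eq_zero.1 h1.symm
  rcases h2 with h2 | h2
  · rw [map_eq_zero] at h2
    exact (leadingCoeff_ne_zero.2 hN) h2
  · exact D0 h2

lemma root_symm {N D : ℂ[X]} (cop : IsCoprime N D) (D0 : D.eval 0 ≠ 0)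
    (hr : ∀ z : ℂ, ‖z‖ = 1 → N.eval z * conj (D.eval z) = conj (N.eval z) * D.eval z)
    {z : ℂ} (hz : D.eval z = 0) : D.eval (conj z)⁻¹ = 0 := by
  have hz0 : z ≠ 0 := by
    rintro rfl
    exact D0 hz
  have hNz : N.eval z ≠ 0 := by
    intro h
    obtain ⟨u, v, huv⟩ := cop
    have := congrArg (eval z) huv
    simp [h, hz] at this
  have h1 := congrArg (eval z) (rf_id (deg_le D0 hr) le_rfl hr)
  rw [eval_mul, eval_mul, hz, mul_zero] at h1
  have h2 := (mul_eq_zero.1 h1).resolve_left hNz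
  rw [rf_eval le_rfl hz0] at h2
  have h3 := (mul_eq_zero.1 h2).resolve_left (pow_ne_zero _ hz0)
  rw [map_eq_zero, map_inv₀] at h3
  exact h3

lemma lead_rel {N D : ℂ[X]} (D0 : D.eval 0 ≠ 0)
    (hr : ∀ z : ℂ, ‖z‖ = 1 → N.eval z * conj (D.eval z) = conj (N.eval z) * D.eval z) :
    N.eval 0 * conj D.leadingCoeff = conj (N.coeff D.natDegree) * D.eval 0 := by
  have h1 := congrArg (eval 0) (rf_id (deg_le D0 hr) le_rfl hr)
  rwa [eval_mul, eval_mul, rf_zero, rf_zero] at h1

/-- cofactors -/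
noncomputable def cf (D : ℂ[X]) (z : ℂ) : ℂ[X] :=
  C D.leadingCoeff * ∏ w ∈ D.roots.toFinset.erase z, (X - C w)

section pf

variable {N D : ℂ[X]} (hs : ∀ z, D.eval z = 0 → (derivative D).eval z ≠ 0)

include hs

lemma D_ne : D ≠ 0 := by
  rintro rfl
  exact hs 0 (by simp) (by simp)

lemma roots_nodup : D.roots.Nodup := by
  refine nodup_roots ?_
  rw [Polynomial.Separable, isCoprime_iff_aeval_ne_zero_of_isAlgClosed ℂ ℂ]
  intro a
  by_cases h : D.eval a = 0
  · right
    simpa using hs a h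
  · left
    simpa using h

lemma D_prod : D = C D.leadingCoeff * ∏ w ∈ D.roots.toFinset, (X - C w) := by
  have h1 := (IsAlgClosed.splits D).eq_prod_roots
  have h2 : D.roots.toFinset.val = D.roots := by
    rw [Multiset.toFinset_val, Multiset.dedup_eq_self.2 (roots_nodup hs)]
  have h3 : (∏ w ∈ D.roots.toFinset, (X - C w)) = (Multiset.map (fun x => X - C x) D.roots).prod := by
    show (Multiset.map (fun x => X - C x) D.roots.toFinset.val).prod = _
    rw [h2]
  rw [h3]
  exact h1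

lemma D_cf {z : ℂ} (hz : D.eval z = 0) : D = (X - C z) * cf D z := by
  have hm : z ∈ D.roots.toFinset := by
    rw [Multiset.mem_toFinset, mem_roots (D_ne hs)]
    exact hz
  conv_lhs => rw [D_prod hs]
  rw [cf, ← Finset.mul_prod_erase _ _ hm]
  ring

lemma cf_eval {z : ℂ} (hz : D.eval z = 0) : (cf D z).eval z = (derivative D).eval z := by
  conv_rhs => rw [D_cf hs hz]
  simp

lemma cf_eval' {z w : ℂ} (hw : D.eval w = 0) (hz : D.eval z = 0) (hne : w ≠ z) :
    (cf D z).eval w = 0 := by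
  have hm : w ∈ D.roots.toFinset.erase z := by
    rw [Finset.mem_erase, Multiset.mem_toFinset, mem_roots (D_ne hs)]
    exact ⟨hne, hw⟩
  rw [cf, eval_mul, eval_prod]
  rw [Finset.prod_eq_zero hm (by simp), mul_zero]

lemma D_card : D.natDegree = D.roots.toFinset.card := by
  conv_lhs => rw [D_prod hs]
  rw [natDegree_C_mul (leadingCoeff_ne_zero.2 (D_ne hs)), natDegree_prod_of_monic _ _
    fun w _ => monic_X_sub_C w]
  simp

lemma cf_mon {z : ℂ} (hz : D.eval z = 0) :
    (X * ∏ w ∈ D.roots.toFinset.erase z, (X - C w) : ℂ[X]).Monic ∧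
      (X * ∏ w ∈ D.roots.toFinset.erase z, (X - C w) : ℂ[X]).natDegree = D.natDegree := by
  have hm : z ∈ D.roots.toFinset := by
    rw [Multiset.mem_toFinset, mem_roots (D_ne hs)]
    exact hz
  have h1 : (∏ w ∈ D.roots.toFinset.erase z, (X - C w) : ℂ[X]).Monic :=
    monic_prod_of_monic _ _ fun w _ => monic_X_sub_C w
  refine ⟨monic_X.mul h1, ?_⟩
  rw [monic_X.natDegree_mul h1, natDegree_prod_of_monic _ _ fun w _ => monic_X_sub_C w, D_card hs]
  have h2 := Finset.card_erase_add_one hm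
  simp only [natDegree_X, natDegree_X_sub_C, Finset.sum_const, smul_eq_mul, mul_one]
  omega

lemma Xcf {z : ℂ} : X * cf D z =
    C D.leadingCoeff * (X * ∏ w ∈ D.roots.toFinset.erase z, (X - C w)) := by
  rw [cf]
  ring

lemma Xcf_deg {z : ℂ} (hz : D.eval z = 0) : (X * cf D z).natDegree ≤ D.natDegree := by
  rw [Xcf hs]
  exact (natDegree_C_mul_le _ _).trans (cf_mon hs hz).2.le

lemma Xcf_coeff {z : ℂ} (hz : D.eval z = 0) :
    (X * cf D z).coeff D.natDegree = D.leadingCoeff := by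
  rw [Xcf hs, coeff_C_mul, ← (cf_mon hs hz).2, (cf_mon hs hz).1.coeff_natDegree, mul_one]

/-- partial fractions -/
lemma pfrac (hd : N.natDegree ≤ D.natDegree) (D0 : D.eval 0 ≠ 0) {σ : ℂ → ℂ}
    (hσ : ∀ z, D.eval z = 0 → N.eval z = z * σ z * (derivative D).eval z) {a : ℂ}
    (ha : N.eval 0 = a * D.eval 0) :
    N = C a * D + ∑ z ∈ D.roots.toFinset, C (σ z) * (X * cf D z) := by
  have hmem : ∀ z, z ∈ D.roots.toFinset ↔ D.eval z = 0 := by
    intro z
    rw [Multiset.mem_toFinset, mem_roots (D_ne hs)]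
    rfl
  have h0 : (0 : ℂ) ∉ D.roots.toFinset := by
    rw [hmem]
    exact D0
  refine eq_of_natDegree_lt_card_of_eval_eq' _ _ (insert 0 D.roots.toFinset) ?_ ?_
  · intro z hz
    rw [Finset.mem_insert] at hz
    rcases hz with rfl | hz
    · rw [eval_add, eval_mul, eval_C, ha, eval_finset_sum]
      rw [Finset.sum_eq_zero, add_zero]
      intro w hw
      simp
    · have hz' := (hmem z).1 hz
      rw [eval_add, eval_mul, hz', mul_zero, zero_add, eval_finset_sum,
        Finset.sum_eq_single_of_mem z hz]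
      · rw [eval_mul, eval_C, eval_mul, eval_X, cf_eval hs hz', hσ z hz']
        ring
      · intro w hw hne
        rw [eval_mul, eval_mul, cf_eval' hs hz' ((hmem w).1 hw) (Ne.symm hne), mul_zero, mul_zero]
  · rw [Finset.card_insert_of_notMem h0, ← D_card hs, Nat.lt_succ_iff]
    refine max_le hd ?_
    refine natDegree_add_le_of_degree_le (natDegree_C_mul_le _ _) ?_
    refine natDegree_sum_le_of_forall_le _ _ fun w hw => ?_
    exact (natDegree_C_mul_le _ _).trans (Xcf_deg hs ((hmem w).1 hw))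

lemma pfrac_coeff (hd : N.natDegree ≤ D.natDegree) (D0 : D.eval 0 ≠ 0) {σ : ℂ → ℂ}
    (hσ : ∀ z, D.eval z = 0 → N.eval z = z * σ z * (derivative D).eval z) {a : ℂ}
    (ha : N.eval 0 = a * D.eval 0) :
    N.coeff D.natDegree = (a + ∑ z ∈ D.roots.toFinset, σ z) * D.leadingCoeff := by
  have h1 := congrArg (fun P => coeff P D.natDegree) (pfrac hs hd D0 hσ ha)
  simp only [coeff_add, coeff_C_mul, finset_sum_coeff, coeff_natDegree] at h1
  rw [h1, add_mul, Finset.sum_mul]
  congr 1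
  refine Finset.sum_congr rfl fun z hz => ?_
  rw [Multiset.mem_toFinset, mem_roots (D_ne hs)] at hz
  rw [Xcf_coeff hs hz]

lemma pfrac_eval (hd : N.natDegree ≤ D.natDegree) (D0 : D.eval 0 ≠ 0) {σ : ℂ → ℂ}
    (hσ : ∀ z, D.eval z = 0 → N.eval z = z * σ z * (derivative D).eval z) {a : ℂ}
    (ha : N.eval 0 = a * D.eval 0) {z : ℂ} (hz : D.eval z ≠ 0) :
    N.eval z / D.eval z = a + ∑ w ∈ D.roots.toFinset, σ w * (z / (z - w)) := by
  have h1 := congrArg (eval z) (pfrac hs hd D0 hσ ha)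
  rw [h1, eval_add, eval_mul, eval_C, eval_finset_sum, add_div, mul_div_cancel_right₀ _ hz,
    Finset.sum_div]
  congr 1
  refine Finset.sum_congr rfl fun w hw => ?_
  rw [Multiset.mem_toFinset, mem_roots (D_ne hs)] at hw
  have h2 := congrArg (eval z) (D_cf hs hw)
  rw [eval_mul, eval_sub, eval_X, eval_C] at h2
  have h3 : z - w ≠ 0 := by
    intro h
    rw [h, zero_mul] at h2
    exact hz h2
  have h4 : (cf D w).eval z ≠ 0 := by
    intro h
    rw [h, mul_zero] at h2
    exact hz h2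
  rw [eval_mul, eval_C, eval_mul, eval_X, h2]
  field_simp

end pf

/-- the residue at `0` -/
lemma res_zero {N D : ℂ[X]} (hs : ∀ z, D.eval z = 0 → (derivative D).eval z ≠ 0)
    (D0 : D.eval 0 ≠ 0)
    (hr : ∀ z : ℂ, ‖z‖ = 1 → N.eval z * conj (D.eval z) = conj (N.eval z) * D.eval z)
    {σ : ℂ → ℝ} (hσ : ∀ z, D.eval z = 0 → N.eval z = z * (I * σ z) * (derivative D).eval z)
    {a : ℂ} (ha : N.eval 0 = a * D.eval 0) :
    2 * a.im = -∑ z ∈ D.roots.toFinset, σ z := by
  have hd := deg_le D0 hr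
  have h1 := lead_rel D0 hr
  rw [pfrac_coeff hs hd D0 hσ ha, ha, map_mul] at h1
  have hl : conj D.leadingCoeff ≠ 0 := by
    rw [Ne, map_eq_zero]
    exact leadingCoeff_ne_zero.2 (D_ne hs)
  have h2 : a = conj (a + ∑ z ∈ D.roots.toFinset, I * (σ z : ℂ)) := by
    have : (a - conj (a + ∑ z ∈ D.roots.toFinset, I * (σ z : ℂ))) *
        (conj D.leadingCoeff * D.eval 0) = 0 := by
      linear_combination h1
    have := (mul_eq_zero.1 this).resolve_right (mul_ne_zero hl D0)
    linear_combination this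
  have h3 := congrArg Complex.im h2
  rw [conj_im, add_im, im_sum] at h3
  simp only [mul_im, I_re, zero_mul, I_im, one_mul, ofReal_re, ofReal_im, zero_add,
    mul_zero] at h3
  linarith

end Vale.Agent.P097.H384
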