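import Vale.Agent.P097.H384.Ell
import Vale.Agent.P097.H384.Poly
import Vale.Agent.P097.H402.Rat.Defs

/-! # P097 / H384 : RAT-F, the classification -/

set_option linter.all false

open Polynomial Complex
open scoped ComplexConjugate

namespace Vale.Agent.P097.H384

open Vale.Agent.P097.H402.Rat Vale.Agent.P097.H202

/-- `|e ^ (i x) - z| ^ 2` -/
noncomputable def nz (z : ℂ) (x : ℝ) : ℝ := (Real.cos x - z.re) ^ 2 + (Real.sin x - z.im) ^ 2

lemma ez_eq (x : ℝ) : ez x = ⟨Real.cos x, Real.sin x⟩ := by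
  rw [ez, mul_comm, Complex.exp_mul_I]
  apply Complex.ext
  · simp [Complex.cos_ofReal_re, Complex.sin_ofReal_im]
  · simp [Complex.cos_ofReal_im, Complex.sin_ofReal_re]

lemma ez_norm (x : ℝ) : ‖ez x‖ = 1 := by
  rw [ez, mul_comm, Complex.norm_exp_ofReal_mul_I]

lemma nz_eq (z : ℂ) (x : ℝ) : nz z x = Complex.normSq (ez x - z) := by
  rw [ez_eq, nz, Complex.normSq_apply]
  simp only [sub_re, sub_im]
  ring

lemma nz_pos {z : ℂ} (hz : ‖z‖ ≠ 1) (x : ℝ) : 0 < nz z x := by
  rw [nz_eq, Complex.normSq_pos, sub_ne_zero]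
  intro h
  exact hz (h ▸ ez_norm x)

lemma nz_deriv (z : ℂ) (x : ℝ) :
    HasDerivAt (nz z) (2 * (z.re * Real.sin x - z.im * Real.cos x)) x := by
  refine ((((Real.hasDerivAt_cos x).sub_const z.re).pow 2).add
    (((Real.hasDerivAt_sin x).sub_const z.im).pow 2)).congr_deriv ?_
  simp
  ring

lemma nz_per (z : ℂ) (x : ℝ) : nz z (x + 2 * Real.pi) = nz z x := by
  simp [nz]

lemma re_frac {z : ℂ} (hz : ‖z‖ ≠ 1) (s x : ℝ) :
    (I * (s : ℂ) * (ez x / (ez x - z))).re =
      s * (z.re * Real.sin x - z.im * Real.cos x) / nz z x := by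
  have h0 := nz_pos hz x
  have h1 : ez x - z ≠ 0 := by
    rw [sub_ne_zero]
    intro h
    exact hz (h ▸ ez_norm x)
  have h2 : I * (s : ℂ) * (ez x / (ez x - z)) =
      (I * s * (ez x * conj (ez x - z))) * ((nz z x : ℝ) : ℂ)⁻¹ := by
    rw [nz_eq, ← Complex.mul_conj]
    have h3 : conj (ez x - z) ≠ 0 := by
      rwa [Ne, map_eq_zero]
    field_simp
  rw [h2, ← ofReal_inv, re_mul_ofReal, ez_eq, div_eq_mul_inv]
  congr 1
  simp only [map_sub, mul_re, mul_im, I_re, I_im, ofReal_re, ofReal_im, sub_re, sub_im, conj_re,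
    conj_im]
  have := Real.sin_sq_add_cos_sq x
  ring

/-- the reflected point -/
lemma nz_refl {z : ℂ} (hz : z ≠ 0) (x : ℝ) :
    nz (conj z)⁻¹ x = nz z x / Complex.normSq z := by
  have h0 : Complex.normSq z ≠ 0 := (Complex.normSq_pos.2 hz).ne'
  have e1 : ((conj z)⁻¹).re = z.re / Complex.normSq z := by
    rw [Complex.inv_re, Complex.normSq_conj, conj_re]
  have e2 : ((conj z)⁻¹).im = z.im / Complex.normSq z := by
    rw [Complex.inv_im, Complex.normSq_conj, conj_im, neg_neg]
  rw [nz, e1, e2, nz]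
  have h1 : Complex.normSq z = z.re ^ 2 + z.im ^ 2 := by
    rw [Complex.normSq_apply]
    ring
  have h2 := Real.sin_sq_add_cos_sq x
  generalize Complex.normSq z = n at *
  field_simp
  have h3 : Real.cos x ^ 2 = 1 - Real.sin x ^ 2 := by linarith
  subst h1
  ring_nf
  rw [h3]
  ring

lemma nz_tp (z w : ℂ) (x : ℝ) : nz z x * nz w x =
    tp ((1 + z.re ^ 2 + z.im ^ 2) * (1 + w.re ^ 2 + w.im ^ 2) +
        2 * (z.re * w.re + z.im * w.im))
      (-2 * ((1 + z.re ^ 2 + z.im ^ 2) * w.re + (1 + w.re ^ 2 + w.im ^ 2) * z.re))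
      (-2 * ((1 + z.re ^ 2 + z.im ^ 2) * w.im + (1 + w.re ^ 2 + w.im ^ 2) * z.im))
      (2 * (z.re * w.re - z.im * w.im)) (2 * (z.re * w.im + z.im * w.re)) x := by
  have h : ∀ z : ℂ, nz z x = 1 + z.re ^ 2 + z.im ^ 2 - 2 * z.re * Real.cos x -
      2 * z.im * Real.sin x := by
    intro z
    rw [nz]
    linear_combination Real.sin_sq_add_cos_sq x
  rw [h, h, tp, Real.cos_two_mul, Real.sin_two_mul]
  linear_combination (4 * z.im * w.im) * Real.sin_sq_add_cos_sq x

/-- **RAT-F** -/
theorem pf : PF := by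
  intro h R δ N D H hδ hR hRe hRL D0 hz ha3
  set g : ℝ → ℝ := fun x => h x + deriv (deriv h) x with hg
  have g0 : ∀ x, 0 < g x := H.2.2
  have gd : Differentiable ℝ g := (st_h1 H).add ((st_ddh H).differentiable (by simp))
  have gper : ∀ x, g (x + 2 * Real.pi) = g x := by
    intro x
    simp only [hg]
    rw [H.2.1 x, st_per2 H x]
  -- the derivative of `R`
  have hRd : ∀ x : ℝ, deriv R x = ((deriv g x : ℝ) : ℂ) := by
    intro x
    have hx : (x : ℂ) ∈ Str δ := by
      show |(x : ℂ).im| < δ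
      simpa using hδ
    have hopen : IsOpen (Str δ) := by
      have : Str δ = (fun z : ℂ => |z.im|) ⁻¹' Set.Iio δ := rfl
      rw [this]
      exact isOpen_Iio.preimage (by fun_prop)
    have h1 : HasDerivAt R (deriv R x) (x : ℂ) :=
      ((hR x hx).differentiableAt (hopen.mem_nhds hx)).hasDerivAt
    have h2 : HasDerivAt (fun y : ℝ => R y) (deriv R x) x := h1.comp_ofReal
    have h3 : HasDerivAt (fun y : ℝ => ((g y : ℝ) : ℂ)) ((deriv g x : ℝ) : ℂ) x :=
      (gd x).hasDerivAt.ofReal_comp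
    have h4 : (fun y : ℝ => R y) = fun y : ℝ => ((g y : ℝ) : ℂ) := funext hRe
    rw [h4] at h2
    exact h2.unique h3
  have hode : ∀ x : ℝ, N.eval (ez x) = ((deriv g x / g x : ℝ) : ℂ) * D.eval (ez x) := by
    intro x
    have h1 := hRL.ode x
    rw [hRd, hRe] at h1
    change ((deriv g x : ℝ) : ℂ) * _ = _ * ((g x : ℝ) : ℂ) at h1
    have h2 : ((g x : ℝ) : ℂ) ≠ 0 := by exact_mod_cast (g0 x).ne'
    push_cast
    field_simp
    linear_combination -h1
  -- reality on the circle
  have hr : ∀ z : ℂ, ‖z‖ = 1 → N.eval z * conj (D.eval z) = conj (N.eval z) * D.eval z := by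
    intro z hz1
    have e : z = ez (z.arg : ℝ) := by
      rw [ez, mul_comm]
      have := Complex.norm_mul_exp_arg_mul_I z
      rw [hz1] at this
      simpa using this.symm
    rw [e, hode, map_mul, conj_ofReal]
    ring
  have hs : ∀ z, D.eval z = 0 → (derivative D).eval z ≠ 0 := fun z h0 => (hz z h0).1
  have hDne := D_ne hs
  have hroot : ∀ z, z ∈ D.roots.toFinset ↔ D.eval z = 0 := by
    intro z
    rw [Multiset.mem_toFinset, mem_roots hDne]
    rfl
  have hz1 : ∀ z, D.eval z = 0 → ‖z‖ ≠ 1 := fun z h0 h1 => hRL.D0 z h1 h0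
  have hz0 : ∀ z, D.eval z = 0 → z ≠ 0 := by
    rintro z h0 rfl
    exact D0 h0
  -- residues
  choose! σ hσ using fun z h0 => (hz z h0).2
  have hσ1 : ∀ z, D.eval z = 0 → N.eval z = z * (I * σ z) * (derivative D).eval z := by
    intro z h0
    rw [(hσ z h0).1]
    ring
  have hσ2 : ∀ z, D.eval z = 0 → σ z ≤ -3 / 2 := by
    intro z h0
    rcases (hσ z h0).2 with h | h
    · exact h.le
    · linarith
  set a : ℂ := N.eval 0 / D.eval 0 with had
  have ha : N.eval 0 = a * D.eval 0 := by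
    rw [had]
    field_simp
  have hdeg := deg_le D0 hr
  have hres := res_zero hs D0 hr hσ1 ha
  -- the logarithm
  have hlog : ∀ x, HasDerivAt (fun x => Real.log (g x) -
      ∑ w ∈ D.roots.toFinset, σ w / 2 * Real.log (nz w x)) a.re x := by
    intro x
    have h1 : HasDerivAt (fun x => Real.log (g x)) (deriv g x / g x) x :=
      (gd x).hasDerivAt.log (g0 x).ne'
    have h2 : HasDerivAt (fun x => ∑ w ∈ D.roots.toFinset, σ w / 2 * Real.log (nz w x))
        (∑ w ∈ D.roots.toFinset, σ w / 2 * (2 * (w.re * Real.sin x - w.im * Real.cos x) /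
          nz w x)) x := by
      have := HasDerivAt.fun_sum (u := D.roots.toFinset)
        (A := fun w x => σ w / 2 * Real.log (nz w x))
        (A' := fun w => σ w / 2 * (2 * (w.re * Real.sin x - w.im * Real.cos x) / nz w x))
        (x := x) fun w hw => by
          exact ((nz_deriv w x).log (nz_pos (hz1 w ((hroot w).1 hw)) x).ne').const_mul _
      exact this
    refine (h1.sub h2).congr_deriv ?_
    have hDx : D.eval (ez x) ≠ 0 := hRL.D0 _ (ez_norm x)
    have h3 := pfrac_eval hs hdeg D0 hσ1 ha hDx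
    rw [hode x, mul_div_cancel_right₀ _ hDx] at h3
    have h4 := congrArg Complex.re h3
    rw [ofReal_re, add_re, re_sum] at h4
    rw [h4]
    have h5 : ∀ w ∈ D.roots.toFinset, (I * (σ w : ℂ) * (ez x / (ez x - w))).re =
        σ w / 2 * (2 * (w.re * Real.sin x - w.im * Real.cos x) / nz w x) := by
      intro w hw
      rw [re_frac (hz1 w ((hroot w).1 hw))]
      ring
    rw [Finset.sum_congr rfl h5]
    ring
  have hlin : ∀ x, Real.log (g x) - ∑ w ∈ D.roots.toFinset, σ w / 2 * Real.log (nz w x) =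
      (Real.log (g 0) - ∑ w ∈ D.roots.toFinset, σ w / 2 * Real.log (nz w 0)) + a.re * x := by
    intro x
    have h1 : ∀ x, HasDerivAt (fun x => (Real.log (g x) -
        ∑ w ∈ D.roots.toFinset, σ w / 2 * Real.log (nz w x)) - a.re * x) 0 x := by
      intro x
      refine ((hlog x).sub ((hasDerivAt_id x).const_mul a.re)).congr_deriv ?_
      simp
    have h2 := is_const_of_deriv_eq_zero (fun x => (h1 x).differentiableAt)
      (fun x => (h1 x).deriv) x 0
    linarith
  have hare : a.re = 0 := by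
    have h1 := hlin (0 + 2 * Real.pi)
    rw [gper 0] at h1
    simp only [nz_per] at h1
    have h2 : a.re * (0 + 2 * Real.pi) = 0 := by linarith
    have h3 : (0 : ℝ) + 2 * Real.pi ≠ 0 := by
      rw [zero_add]
      positivity
    exact (mul_eq_zero.1 h2).resolve_right h3
  rw [hare] at hlin
  simp only [zero_mul, add_zero] at hlin
  set c₀ := Real.log (g 0) - ∑ w ∈ D.roots.toFinset, σ w / 2 * Real.log (nz w 0) with hc₀
  -- the inner roots
  set A := D.roots.toFinset.filter (fun z => ‖z‖ < 1) with hA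
  set τ : ℂ → ℂ := fun z => (conj z)⁻¹ with hτ
  have hτn : ∀ z, ‖τ z‖ = ‖z‖⁻¹ := by
    intro z
    simp [hτ]
  have hττ : ∀ z, τ (τ z) = z := by
    intro z
    simp [hτ]
  have hτr : ∀ z, D.eval z = 0 → D.eval (τ z) = 0 := fun z h0 => root_symm hRL.cop D0 hr h0
  have hsplit : ∀ f : ℂ → ℝ, ∑ z ∈ D.roots.toFinset, f z = ∑ z ∈ A, (f z + f (τ z)) := by
    intro f
    rw [← Finset.sum_filter_add_sum_filter_not D.roots.toFinset (fun z => ‖z‖ < 1),
      Finset.sum_add_distrib]
    congr 1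
    symm
    refine Finset.sum_nbij' τ τ ?_ ?_ ?_ ?_ ?_
    · intro z hzA
      rw [hA, Finset.mem_filter, hroot] at hzA
      rw [Finset.mem_filter, hroot]
      refine ⟨hτr z hzA.1, ?_⟩
      rw [hτn, not_lt]
      exact (one_le_inv₀ (norm_pos_iff.2 (hz0 z hzA.1))).2 hzA.2.le
    · intro z hzA
      rw [Finset.mem_filter, hroot] at hzA
      rw [hA, Finset.mem_filter, hroot]
      refine ⟨hτr z hzA.1, ?_⟩
      rw [hτn]
      have h1 : 1 < ‖z‖ := lt_of_le_of_ne (not_lt.1 hzA.2) (Ne.symm (hz1 z hzA.1))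
      exact inv_lt_one_of_one_lt₀ h1
    · intro z _
      exact hττ z
    · intro z _
      exact hττ z
    · intro z _
      rfl
  have hAr : ∀ z ∈ A, D.eval z = 0 := by
    intro z hzA
    rw [hA, Finset.mem_filter, hroot] at hzA
    exact hzA.1
  set t : ℂ → ℝ := fun z => (σ z + σ (τ z)) / 2 with ht
  have ht1 : ∀ z ∈ A, t z ≤ -3 / 2 := by
    intro z hzA
    have h1 := hσ2 z (hAr z hzA)
    have h2 := hσ2 _ (hτr z (hAr z hzA))
    simp only [ht]
    linarith
  have hts : ∑ z ∈ A, t z = -a.im := by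
    have h1 := hsplit σ
    simp only [ht]
    rw [← Finset.sum_div, ← h1]
    linarith
  -- the formula
  have hform : ∀ x, Real.log (g x) = (c₀ - ∑ z ∈ A, σ (τ z) / 2 * Real.log (Complex.normSq z)) +
      ∑ z ∈ A, t z * Real.log (nz z x) := by
    intro x
    have h1 := hlin x
    rw [hsplit (fun w => σ w / 2 * Real.log (nz w x))] at h1
    have h2 : ∀ z ∈ A, σ z / 2 * Real.log (nz z x) + σ (τ z) / 2 * Real.log (nz (τ z) x) =
        t z * Real.log (nz z x) - σ (τ z) / 2 * Real.log (Complex.normSq z) := by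
      intro z hzA
      have h3 := hz0 z (hAr z hzA)
      simp only [hτ] at *
      rw [nz_refl h3, Real.log_div (nz_pos (hz1 z (hAr z hzA)) x).ne'
        (Complex.normSq_pos.2 h3).ne']
      simp only [ht]
      ring
    rw [Finset.sum_congr rfl h2, Finset.sum_sub_distrib] at h1
    linarith
  -- two factors
  obtain ⟨z, w, hzn, hwn, c₁, hzw⟩ : ∃ z w : ℂ, ‖z‖ ≠ 1 ∧ ‖w‖ ≠ 1 ∧ ∃ c₁ : ℝ, ∀ x,
      Real.log (g x) = c₁ + -3 / 2 * (Real.log (nz z x) + Real.log (nz w x)) := by
    rcases A.eq_empty_or_nonempty with hAe | hAne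
    · refine ⟨0, 0, by simp, by simp, c₀ - ∑ z ∈ A, σ (τ z) / 2 * Real.log (Complex.normSq z),
        fun x => ?_⟩
      rw [hform x, hAe]
      have : nz 0 x = 1 := by
        simp [nz]
      simp [this]
    · have h1 : a.im = 3 := by
        refine ha3 a.im ?_ ?_
        · have h2 : (∑ z ∈ A, t z) ≤ A.card • (-3 / 2 : ℝ) := Finset.sum_le_card_nsmul _ _ _ ht1
          have h3 : (1 : ℝ) ≤ A.card := by
            exact_mod_cast Finset.card_pos.2 hAne
          rw [nsmul_eq_mul] at h2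
          linarith
        · rw [ha]
          congr 1
          apply Complex.ext <;> simp [hare]
      have h2 : ∑ z ∈ A, t z = -3 := by rw [hts, h1]
      by_contra hcon
      push Not at hcon
      -- the pair does not depend on `x`: use card
      have hc : (A.card : ℝ) * (-3 / 2) ≥ -3 := by
        have h3 : (∑ z ∈ A, t z) ≤ A.card • (-3 / 2 : ℝ) := Finset.sum_le_card_nsmul _ _ _ ht1
        rw [nsmul_eq_mul, h2] at h3
        exact h3
      have hc2 : A.card ≤ 2 := by
        have : (A.card : ℝ) ≤ 2 := by linarith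
        exact_mod_cast this
      have hc1 : 1 ≤ A.card := Finset.card_pos.2 hAne
      have hcc : A.card = 1 ∨ A.card = 2 := by omega
      rcases hcc with hcc | hcc
      · obtain ⟨z, hAz⟩ := Finset.card_eq_one.1 hcc
        have hzA : z ∈ A := by rw [hAz]; simp
        obtain ⟨x, hx⟩ := hcon z z (hz1 z (hAr z hzA)) (hz1 z (hAr z hzA))
          (c₀ - ∑ z ∈ A, σ (τ z) / 2 * Real.log (Complex.normSq z))
        apply hx
        rw [hform x]
        congr 1
        rw [hAz, Finset.sum_singleton] at h2 ⊢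
        rw [h2]
        ring
      · obtain ⟨z, w, hne, hAz⟩ := Finset.card_eq_two.1 hcc
        have hzA : z ∈ A := by rw [hAz]; simp
        have hwA : w ∈ A := by rw [hAz]; simp
        obtain ⟨x, hx⟩ := hcon z w (hz1 z (hAr z hzA)) (hz1 w (hAr w hwA))
          (c₀ - ∑ z ∈ A, σ (τ z) / 2 * Real.log (Complex.normSq z))
        apply hx
        rw [hform x]
        congr 1
        have h3 := ht1 z hzA
        have h4 := ht1 w hwA
        rw [hAz, Finset.sum_pair hne] at h2 ⊢
        have e1 : t z = -3 / 2 := by linarith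
        have e2 : t w = -3 / 2 := by linarith
        rw [e1, e2]
        ring
  -- the end
  obtain ⟨c0, c1, s1, c2, s2, hp⟩ : ∃ c0 c1 s1 c2 s2 : ℝ, ∀ x,
      nz z x * nz w x = tp c0 c1 s1 c2 s2 x := ⟨_, _, _, _, _, nz_tp z w⟩
  refine ellipse_of_tp H (K := Real.exp c₁) (c0 := c0) (c1 := c1) (s1 := s1) (c2 := c2) (s2 := s2)
    (Real.exp_pos _) (fun x => ?_) (fun x => ?_)
  · rw [← hp x]
    exact mul_pos (nz_pos hzn x) (nz_pos hwn x)
  · rw [← hp x]
    have p1 := nz_pos hzn x
    have p2 := nz_pos hwn x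
    have p3 : 0 < nz z x * nz w x := mul_pos p1 p2
    have p4 : 0 < √(nz z x * nz w x) ^ 3 := by positivity
    change g x * _ = _
    apply Real.log_injOn_pos (mul_pos (g0 x) p4) (Real.exp_pos _)
    rw [Real.log_mul (g0 x).ne' p4.ne', Real.log_exp, hzw x, Real.log_pow, Real.log_sqrt p3.le,
      Real.log_mul p1.ne' p2.ne']
    push_cast
    ring

end Vale.Agent.P097.H384
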